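import Vale.Agent.H16.Torus.Defs
import Vale.Agent.H16.Torus.General

set_option autoImplicit false

namespace Vale.Agent.Results.P205.AllTori

open Vale.Agent.P205

/-- Every smooth Riemannian metric on the torus `ℝ² / ℤ²` has a `C^∞` isometric immersion into
Euclidean `ℝ⁴`. -/
theorem result (g : TorusMetric) :
    ∃ Φ : ℝ × ℝ → EuclideanSpace ℝ (Fin 4), IsSmoothIsometricImmersion g Φ :=
  torus_general g

end Vale.Agent.Results.P205.AllTori
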