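import Vale.Agent.H16.Torus.Defs
import Vale.Agent.H16.Torus.Circle

set_option autoImplicit false

namespace Vale.Agent.Results.P205.CircleSymmetricTori

open Vale.Agent.P205

/-- Every smooth Riemannian metric on the torus `ℝ² / ℤ²` that is invariant under the circle action
`(x, y) ↦ (x, y + t)` has a `C^∞` isometric immersion into Euclidean `ℝ⁴`. -/
theorem result (g : TorusMetric)
    (hsym : ∀ x y y' : ℝ, g.E (x, y) = g.E (x, y') ∧ g.F (x, y) = g.F (x, y') ∧
      g.G (x, y) = g.G (x, y')) :
    ∃ Φ : ℝ × ℝ → EuclideanSpace ℝ (Fin 4), IsSmoothIsometricImmersion g Φ :=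
  circle_symmetric g (fun x y y' => (hsym x y y').1) (fun x y y' => (hsym x y y').2.1)
    (fun x y y' => (hsym x y y').2.2)

end Vale.Agent.Results.P205.CircleSymmetricTori
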