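import Vale.Agent.H16.Torus.Defs
import Vale.Agent.H16.Torus.FamilyFinal

set_option autoImplicit false

namespace Vale.Agent.Results.P205.ConformallyFlatTori

open Vale.Agent.P205

/-- Every smooth Riemannian metric on the torus `ℝ² / ℤ²` of the form
`lam · (a dx² + 2 b dx dy + c dy²)`, with `lam` an arbitrary positive function and `a, b, c`
constants, has a `C^∞` isometric immersion into Euclidean `ℝ⁴`. -/
theorem result (g : TorusMetric) (lam : ℝ × ℝ → ℝ) (hlam : ∀ p, 0 < lam p) (a b c : ℝ)
    (hE : ∀ p, g.E p = lam p * a) (hF : ∀ p, g.F p = lam p * b) (hG : ∀ p, g.G p = lam p * c) :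
    ∃ Φ : ℝ × ℝ → EuclideanSpace ℝ (Fin 4), IsSmoothIsometricImmersion g Φ :=
  conformal_of_family exists_family g lam hlam a b c hE hF hG

end Vale.Agent.Results.P205.ConformallyFlatTori
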